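import Mathlib.Analysis.Calculus.LocalExtr.Basic
import Mathlib.Analysis.Matrix.Order
import Mathlib.Analysis.SpecialFunctions.ExpDeriv
import Mathlib.LinearAlgebra.Matrix.Transvection
import Mathlib.MeasureTheory.Integral.Bochner.Basic
import Mathlib.MeasureTheory.Constructions.BorelSpace.Order
import Mathlib.MeasureTheory.Constructions.BorelSpace.Real
import Mathlib.Topology.Instances.Matrix
import Mathlib.Topology.Semicontinuity.Basic

/-!
# P254, block S (helper255): the gauge `E B = λ I`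

`Z : Ω → ℝⁿ` a random vector, `μ` a law on `ℝⁿ`.  `Dat P Z μ Λ` : a random vector `Y` with the law
of `Λ X`, `X ~ μ`, and a pair of conjugate potentials `u`, `v` with `Z · x ≤ u + v x`, equality at
`x = Y`, `v` with a quadratic upper bound at the points `Y` (`v` is `C^{1,1}`).

`exists_gauge` : if there are such data for all positive definite `Λ` of determinant one and the
matrix `E (Y_i Z_j)` is at least `c > 0` for `Λ = 1`, then for some `Λ` the matrix `E (Y_i Z_j)` is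
a multiple of the identity.
-/

open MeasureTheory Matrix
open scoped MatrixOrder Topology

namespace Vale.Agent.P254.H255

variable {n : ℕ} {Ω : Type*} [MeasurableSpace Ω]

/-- `E (Y_i Z_j)` -/
noncomputable def cross (P : Measure Ω) (Y Z : Ω → Fin n → ℝ) : Matrix (Fin n) (Fin n) ℝ :=
  fun i j => ∫ ω, Y ω i * Z ω j ∂P

/-- the sum of the squares of the entries -/
def fro (N : Matrix (Fin n) (Fin n) ℝ) : ℝ := ∑ i, ∑ j, N i j ^ 2

theorem mulVec_dot_le (N : Matrix (Fin n) (Fin n) ℝ) (x : Fin n → ℝ) :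
    (N *ᵥ x) ⬝ᵥ (N *ᵥ x) ≤ fro N * (x ⬝ᵥ x) := by
  have h : ∀ i, (N *ᵥ x) i * (N *ᵥ x) i ≤ (∑ j, N i j ^ 2) * ∑ j, x j ^ 2 := by
    intro i
    have := Finset.sum_mul_sq_le_sq_mul_sq Finset.univ (fun j => N i j) x
    rw [← pow_two]
    exact this
  have e : x ⬝ᵥ x = ∑ j, x j ^ 2 := Finset.sum_congr rfl fun j _ => (pow_two _).symm
  rw [fro, Finset.sum_mul, e]
  exact Finset.sum_le_sum fun i _ => h i

section moments

variable {P : Measure Ω} {Y Z : Ω → Fin n → ℝ}

theorem integrable_mul_coord (hY : Measurable Y) (hZ : Measurable Z)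
    (hY2 : Integrable (fun ω => Y ω ⬝ᵥ Y ω) P) (hZ2 : Integrable (fun ω => Z ω ⬝ᵥ Z ω) P)
    (i j : Fin n) : Integrable (fun ω => Y ω i * Z ω j) P := by
  refine (hY2.add hZ2).mono'
    (((measurable_pi_apply i).comp hY).mul ((measurable_pi_apply j).comp hZ)).aestronglyMeasurable
    (Filter.Eventually.of_forall fun ω => ?_)
  have h1 : Y ω i ^ 2 ≤ Y ω ⬝ᵥ Y ω := by
    rw [pow_two]
    exact Finset.single_le_sum (f := fun i => Y ω i * Y ω i) (fun i _ => mul_self_nonneg _)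
      (Finset.mem_univ i)
  have h2 : Z ω j ^ 2 ≤ Z ω ⬝ᵥ Z ω := by
    rw [pow_two]
    exact Finset.single_le_sum (f := fun i => Z ω i * Z ω i) (fun i _ => mul_self_nonneg _)
      (Finset.mem_univ j)
  rw [Real.norm_eq_abs, abs_le]
  simp only [Pi.add_apply]
  constructor <;> nlinarith [sq_nonneg (Y ω i + Z ω j), sq_nonneg (Y ω i - Z ω j)]

theorem dot_mulVec_eq (N : Matrix (Fin n) (Fin n) ℝ) (z y : Fin n → ℝ) :
    z ⬝ᵥ (N *ᵥ y) = ∑ i, ∑ j, N i j * (y j * z i) := by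
  refine Finset.sum_congr rfl fun i _ => ?_
  show z i * ∑ j, N i j * y j = _
  rw [Finset.mul_sum]
  exact Finset.sum_congr rfl fun j _ => by ring

theorem integrable_dot (hY : Measurable Y) (hZ : Measurable Z)
    (hY2 : Integrable (fun ω => Y ω ⬝ᵥ Y ω) P) (hZ2 : Integrable (fun ω => Z ω ⬝ᵥ Z ω) P)
    (N : Matrix (Fin n) (Fin n) ℝ) : Integrable (fun ω => Z ω ⬝ᵥ (N *ᵥ Y ω)) P := by
  simp_rw [dot_mulVec_eq]
  exact integrable_finsetSum _ fun i _ => integrable_finsetSum _ fun j _ =>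
    (integrable_mul_coord hY hZ hY2 hZ2 j i).const_mul _

theorem integral_dot (hY : Measurable Y) (hZ : Measurable Z)
    (hY2 : Integrable (fun ω => Y ω ⬝ᵥ Y ω) P) (hZ2 : Integrable (fun ω => Z ω ⬝ᵥ Z ω) P)
    (N : Matrix (Fin n) (Fin n) ℝ) :
    ∫ ω, Z ω ⬝ᵥ (N *ᵥ Y ω) ∂P = (N * cross P Y Z).trace := by
  simp_rw [dot_mulVec_eq]
  have hij : ∀ i j, Integrable (fun ω => N i j * (Y ω j * Z ω i)) P := fun i j =>
    (integrable_mul_coord hY hZ hY2 hZ2 j i).const_mul _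
  refine (integral_finsetSum Finset.univ
    (f := fun i ω => ∑ j, N i j * (Y ω j * Z ω i)) fun i _ =>
      integrable_finsetSum _ fun j _ => hij i j).trans ?_
  refine Finset.sum_congr rfl fun i _ => ?_
  refine (integral_finsetSum Finset.univ
    (f := fun j ω => N i j * (Y ω j * Z ω i)) fun j _ => hij i j).trans ?_
  refine Finset.sum_congr rfl fun j _ => ?_
  rw [integral_const_mul]
  rfl

end moments

/-- A random vector with the law of `Λ X` and conjugate potentials. -/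
structure Dat (P : Measure Ω) (Z : Ω → Fin n → ℝ) (μ : Measure (Fin n → ℝ))
    (L : Matrix (Fin n) (Fin n) ℝ) where
  /-- the random vector -/
  Y : Ω → Fin n → ℝ
  meas : Measurable Y
  map_eq : P.map Y = μ.map (fun x => L *ᵥ x)
  /-- the potential at the points `Z` -/
  u : Ω → ℝ
  /-- the conjugate potential -/
  v : (Fin n → ℝ) → ℝ
  u_int : Integrable u P
  v_meas : Measurable v
  v_int : Integrable v (μ.map (fun x => L *ᵥ x))
  young : ∀ ω x, Z ω ⬝ᵥ x ≤ u ω + v x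
  young_eq : ∀ ω, Z ω ⬝ᵥ Y ω = u ω + v (Y ω)
  /-- the constant of the quadratic upper bound -/
  C : ℝ
  C_nonneg : 0 ≤ C
  quad : ∀ ω w, v (Y ω + w) ≤ v (Y ω) + Z ω ⬝ᵥ w + C * (w ⬝ᵥ w)
  symm : ∀ i j, ∫ ω, Y ω i * Z ω j ∂P = ∫ ω, Y ω j * Z ω i ∂P

namespace Dat

variable {P : Measure Ω} {Z : Ω → Fin n → ℝ} {μ : Measure (Fin n → ℝ)}
  {L L' : Matrix (Fin n) (Fin n) ℝ}

theorem measurable_mulVec (L : Matrix (Fin n) (Fin n) ℝ) : Measurable fun x => L *ᵥ x := by
  refine measurable_pi_lambda _ fun i => ?_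
  show Measurable fun x : Fin n → ℝ => ∑ j, L i j * x j
  exact Finset.measurable_sum _ fun j _ => (measurable_pi_apply j).const_mul _

theorem integrable_sq (D : Dat P Z μ L) (hμ : Integrable (fun x => x ⬝ᵥ x) μ) :
    Integrable (fun ω => D.Y ω ⬝ᵥ D.Y ω) P := by
  have hm : Measurable fun x : Fin n → ℝ => x ⬝ᵥ x :=
    Finset.measurable_sum _ fun j _ => (measurable_pi_apply j).mul (measurable_pi_apply j)
  have h1 : Integrable (fun x : Fin n → ℝ => x ⬝ᵥ x) (μ.map fun x => L *ᵥ x) := by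
    rw [integrable_map_measure hm.aestronglyMeasurable (measurable_mulVec L).aemeasurable]
    refine (hμ.const_mul (fro L)).mono' (hm.comp (measurable_mulVec L)).aestronglyMeasurable
      (Filter.Eventually.of_forall fun x => ?_)
    show ‖(L *ᵥ x) ⬝ᵥ (L *ᵥ x)‖ ≤ _
    rw [Real.norm_eq_abs, abs_of_nonneg (Finset.sum_nonneg fun i _ => mul_self_nonneg _)]
    exact mulVec_dot_le L x
  rw [← D.map_eq, integrable_map_measure hm.aestronglyMeasurable D.meas.aemeasurable] at h1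
  exact h1

/-- the matrix `E (Y_i Z_j)` -/
noncomputable def K (D : Dat P Z μ L) : Matrix (Fin n) (Fin n) ℝ := cross P D.Y Z

theorem K_symm (D : Dat P Z μ L) : D.K.transpose = D.K := by
  ext i j
  exact D.symm j i

variable (hZ : Measurable Z) (hZ2 : Integrable (fun ω => Z ω ⬝ᵥ Z ω) P)
  (hμ : Integrable (fun x => x ⬝ᵥ x) μ)

/-- `W = L' L⁻¹ Y` has the law of `L' X`. -/
theorem map_W (D : Dat P Z μ L) (hL : IsUnit L.det) (L' : Matrix (Fin n) (Fin n) ℝ) :
    P.map (fun ω => (L' * L⁻¹) *ᵥ D.Y ω) = μ.map (fun x => L' *ᵥ x) := by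
  have h1 : P.map (fun ω => (L' * L⁻¹) *ᵥ D.Y ω) =
      (P.map D.Y).map (fun x => (L' * L⁻¹) *ᵥ x) :=
    (Measure.map_map (measurable_mulVec _) D.meas).symm
  rw [h1, D.map_eq, Measure.map_map (measurable_mulVec _) (measurable_mulVec _)]
  congr 1
  funext x
  show (L' * L⁻¹) *ᵥ (L *ᵥ x) = L' *ᵥ x
  rw [mulVec_mulVec, Matrix.mul_assoc, nonsing_inv_mul L hL, Matrix.mul_one]

theorem integral_v_W (D : Dat P Z μ L) (D' : Dat P Z μ L') (hL : IsUnit L.det) :
    Integrable (fun ω => D'.v ((L' * L⁻¹) *ᵥ D.Y ω)) P ∧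
      ∫ ω, D'.v ((L' * L⁻¹) *ᵥ D.Y ω) ∂P = ∫ ω, D'.v (D'.Y ω) ∂P := by
  have hm : Measurable fun ω => (L' * L⁻¹) *ᵥ D.Y ω := (measurable_mulVec _).comp D.meas
  constructor
  · have h := D'.v_int
    rw [← D.map_W hL L', integrable_map_measure D'.v_meas.aestronglyMeasurable hm.aemeasurable] at h
    exact h
  · rw [← integral_map hm.aemeasurable D'.v_meas.aestronglyMeasurable,
      ← integral_map D'.meas.aemeasurable D'.v_meas.aestronglyMeasurable, D.map_W hL, D'.map_eq]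

theorem integrable_v (D : Dat P Z μ L) : Integrable (fun ω => D.v (D.Y ω)) P := by
  have h := D.v_int
  rw [← D.map_eq, integrable_map_measure D.v_meas.aestronglyMeasurable D.meas.aemeasurable] at h
  exact h

include hZ hZ2 hμ in
theorem trace_eq (D : Dat P Z μ L) : D.K.trace = ∫ ω, D.u ω ∂P + ∫ ω, D.v (D.Y ω) ∂P := by
  have h1 := integral_dot D.meas hZ (D.integrable_sq hμ) hZ2 (1 : Matrix (Fin n) (Fin n) ℝ)
  rw [Matrix.one_mul] at h1
  rw [← integral_add D.u_int D.integrable_v]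
  refine h1.symm.trans (integral_congr_ae (Filter.Eventually.of_forall fun ω => ?_))
  show Z ω ⬝ᵥ ((1 : Matrix (Fin n) (Fin n) ℝ) *ᵥ D.Y ω) = _
  rw [Matrix.one_mulVec]
  exact D.young_eq ω

include hZ hZ2 hμ in
/-- every coupling gives at most `J` -/
theorem le_trace (D : Dat P Z μ L) (D' : Dat P Z μ L') (hL : IsUnit L.det) :
    (L' * L⁻¹ * D.K).trace ≤ D'.K.trace := by
  obtain ⟨h1, h2⟩ := D.integral_v_W D' hL
  have h3 := integral_dot D.meas hZ (D.integrable_sq hμ) hZ2 (L' * L⁻¹)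
  have h4 : ∫ ω, Z ω ⬝ᵥ ((L' * L⁻¹) *ᵥ D.Y ω) ∂P ≤
      ∫ ω, (D'.u ω + D'.v ((L' * L⁻¹) *ᵥ D.Y ω)) ∂P :=
    integral_mono (integrable_dot D.meas hZ (D.integrable_sq hμ) hZ2 _) (D'.u_int.add h1)
      fun ω => D'.young ω _
  rw [integral_add D'.u_int h1, h2, ← D'.trace_eq hZ hZ2 hμ, h3] at h4
  exact h4

include hZ hZ2 hμ in
/-- the upper bound of `J` near `L` -/
theorem trace_le (D : Dat P Z μ L) (D' : Dat P Z μ L') (hL : IsUnit L.det)
    {N : Matrix (Fin n) (Fin n) ℝ} (hN : L' * L⁻¹ = 1 + N) :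
    D'.K.trace ≤ D.K.trace + (N * D.K).trace +
      D.C * (fro N * ∫ ω, D.Y ω ⬝ᵥ D.Y ω ∂P) := by
  have hY2 := D.integrable_sq hμ
  have hW : ∀ ω, (L' * L⁻¹) *ᵥ D.Y ω = D.Y ω + N *ᵥ D.Y ω := fun ω => by
    rw [hN, Matrix.add_mulVec, Matrix.one_mulVec]
  have hq : Integrable (fun ω => (N *ᵥ D.Y ω) ⬝ᵥ (N *ᵥ D.Y ω)) P := by
    have hm : Measurable fun x : Fin n → ℝ => x ⬝ᵥ x :=
      Finset.measurable_sum _ fun j _ => (measurable_pi_apply j).mul (measurable_pi_apply j)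
    refine (hY2.const_mul (fro N)).mono'
      (hm.comp ((measurable_mulVec N).comp D.meas)).aestronglyMeasurable
      (Filter.Eventually.of_forall fun ω => ?_)
    rw [Real.norm_eq_abs, abs_of_nonneg (Finset.sum_nonneg fun i _ => mul_self_nonneg _)]
    exact mulVec_dot_le N _
  have hZN := integrable_dot D.meas hZ hY2 hZ2 N
  have hub : Integrable (fun ω => D.v (D.Y ω) + Z ω ⬝ᵥ (N *ᵥ D.Y ω) +
      D.C * ((N *ᵥ D.Y ω) ⬝ᵥ (N *ᵥ D.Y ω))) P :=
    (D.integrable_v.add hZN).add (hq.const_mul _)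
  have hWm : Measurable fun ω => (L' * L⁻¹) *ᵥ D.Y ω := (measurable_mulVec _).comp D.meas
  have hZW := integrable_dot D.meas hZ hY2 hZ2 (L' * L⁻¹)
  have hvW : Integrable (fun ω => D.v ((L' * L⁻¹) *ᵥ D.Y ω)) P := by
    refine (hub.abs.add (hZW.sub D.u_int).abs).mono'
      (D.v_meas.comp hWm).aestronglyMeasurable (Filter.Eventually.of_forall fun ω => ?_)
    have h1 := D.young ω ((L' * L⁻¹) *ᵥ D.Y ω)
    have h2 := D.quad ω (N *ᵥ D.Y ω)
    rw [← hW ω] at h2
    have h3 := le_abs_self (D.v (D.Y ω) + Z ω ⬝ᵥ (N *ᵥ D.Y ω) +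
      D.C * ((N *ᵥ D.Y ω) ⬝ᵥ (N *ᵥ D.Y ω)))
    have h4 := neg_abs_le (Z ω ⬝ᵥ ((L' * L⁻¹) *ᵥ D.Y ω) - D.u ω)
    have h5 := abs_nonneg (D.v (D.Y ω) + Z ω ⬝ᵥ (N *ᵥ D.Y ω) +
      D.C * ((N *ᵥ D.Y ω) ⬝ᵥ (N *ᵥ D.Y ω)))
    have h6 := abs_nonneg (Z ω ⬝ᵥ ((L' * L⁻¹) *ᵥ D.Y ω) - D.u ω)
    show ‖_‖ ≤ |_| + |_|
    rw [Real.norm_eq_abs, abs_le]
    simp only [Pi.sub_apply]
    constructor <;> linarith
  -- the law of `Y'` is the law of `W`
  have hlaw : P.map D'.Y = P.map (fun ω => (L' * L⁻¹) *ᵥ D.Y ω) := by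
    rw [D.map_W hL, D'.map_eq]
  have hvY' : Integrable (fun ω => D.v (D'.Y ω)) P := by
    have h := (integrable_map_measure D.v_meas.aestronglyMeasurable hWm.aemeasurable).2 hvW
    rw [← hlaw] at h
    exact (integrable_map_measure D.v_meas.aestronglyMeasurable D'.meas.aemeasurable).1 h
  have hint : ∫ ω, D.v (D'.Y ω) ∂P = ∫ ω, D.v ((L' * L⁻¹) *ᵥ D.Y ω) ∂P := by
    rw [← integral_map D'.meas.aemeasurable D.v_meas.aestronglyMeasurable, hlaw,
      integral_map hWm.aemeasurable D.v_meas.aestronglyMeasurable]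
  have h1 := integral_dot D'.meas hZ (D'.integrable_sq hμ) hZ2 (1 : Matrix (Fin n) (Fin n) ℝ)
  have h1' := integrable_dot D'.meas hZ (D'.integrable_sq hμ) hZ2 (1 : Matrix (Fin n) (Fin n) ℝ)
  simp_rw [Matrix.one_mulVec, Matrix.one_mul] at h1 h1'
  have h2 : ∫ ω, Z ω ⬝ᵥ D'.Y ω ∂P ≤ ∫ ω, (D.u ω + D.v (D'.Y ω)) ∂P :=
    integral_mono h1' (D.u_int.add hvY') fun ω => D.young ω _
  rw [integral_add D.u_int hvY', hint] at h2
  have h3 : ∫ ω, D.v ((L' * L⁻¹) *ᵥ D.Y ω) ∂P ≤ ∫ ω, (D.v (D.Y ω) + Z ω ⬝ᵥ (N *ᵥ D.Y ω) +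
      D.C * ((N *ᵥ D.Y ω) ⬝ᵥ (N *ᵥ D.Y ω))) ∂P := by
    refine integral_mono hvW hub fun ω => ?_
    show D.v ((L' * L⁻¹) *ᵥ D.Y ω) ≤ _
    rw [hW ω]
    exact D.quad ω _
  have h4 : ∫ ω, (D.v (D.Y ω) + Z ω ⬝ᵥ (N *ᵥ D.Y ω) +
      D.C * ((N *ᵥ D.Y ω) ⬝ᵥ (N *ᵥ D.Y ω))) ∂P = ∫ ω, D.v (D.Y ω) ∂P + (N * D.K).trace +
      D.C * ∫ ω, (N *ᵥ D.Y ω) ⬝ᵥ (N *ᵥ D.Y ω) ∂P := by
    have e1 := integral_add (D.integrable_v.add hZN) (hq.const_mul D.C)
    have e2 := integral_add D.integrable_v hZN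
    rw [integral_const_mul] at e1
    have e3 := integral_dot D.meas hZ hY2 hZ2 N
    calc _ = _ := e1
      _ = _ := by rw [show (∫ ω, ((fun ω => D.v (D.Y ω)) + fun ω => Z ω ⬝ᵥ (N *ᵥ D.Y ω)) ω ∂P) =
        ∫ ω, D.v (D.Y ω) ∂P + ∫ ω, Z ω ⬝ᵥ (N *ᵥ D.Y ω) ∂P from e2, e3]; rfl
  have h5 : ∫ ω, (N *ᵥ D.Y ω) ⬝ᵥ (N *ᵥ D.Y ω) ∂P ≤ fro N * ∫ ω, D.Y ω ⬝ᵥ D.Y ω ∂P := by
    rw [← integral_const_mul]
    exact integral_mono hq (hY2.const_mul _) fun ω => mulVec_dot_le N _
  have h6 := mul_le_mul_of_nonneg_left h5 D.C_nonneg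
  have h7 := D.trace_eq hZ hZ2 hμ
  have h8 : D'.K.trace = ∫ ω, Z ω ⬝ᵥ D'.Y ω ∂P := h1.symm
  linarith

end Dat

/-! ### the minimiser -/

/-- `tr (Λ A) ≥ c tr Λ` for positive semidefinite `Λ` and `A ≥ c`. -/
theorem trace_mul_ge {L A : Matrix (Fin n) (Fin n) ℝ} (hL : L.PosSemidef) {c : ℝ}
    (hA : ∀ x : Fin n → ℝ, c * (x ⬝ᵥ x) ≤ x ⬝ᵥ (A *ᵥ x)) : c * L.trace ≤ (L * A).trace := by
  obtain ⟨B, rfl⟩ := CStarAlgebra.nonneg_iff_eq_star_mul_self.mp hL.nonneg
  have hB : star B = B.transpose := by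
    rw [star_eq_conjTranspose, conjTranspose_eq_transpose_of_trivial]
  have h1 : ((star B * B) * A).trace = ∑ i, (B i) ⬝ᵥ (A *ᵥ B i) := by
    rw [hB, Matrix.mul_assoc, Matrix.trace_mul_comm, Matrix.mul_assoc]
    refine Finset.sum_congr rfl fun i _ => ?_
    show ∑ k, B i k * (A * B.transpose) k i = ∑ k, B i k * (A *ᵥ B i) k
    rfl
  have h2 : (star B * B).trace = ∑ i, (B i) ⬝ᵥ (B i) := by
    rw [hB, Matrix.trace_mul_comm]
    rfl
  rw [h1, h2, Finset.mul_sum]
  exact Finset.sum_le_sum fun i _ => hA _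

/-- the entries of a positive semidefinite matrix are bounded by the trace -/
theorem abs_entry_le {L : Matrix (Fin n) (Fin n) ℝ} (hL : L.PosSemidef) (i j : Fin n) :
    |L i j| ≤ L.trace := by
  obtain ⟨B, rfl⟩ := CStarAlgebra.nonneg_iff_eq_star_mul_self.mp hL.nonneg
  have hB : star B = B.transpose := by
    rw [star_eq_conjTranspose, conjTranspose_eq_transpose_of_trivial]
  rw [hB]
  have hd : ∀ i, (B.transpose * B) i i ≤ (B.transpose * B).trace := fun i =>
    Finset.single_le_sum (f := fun i => (B.transpose * B) i i)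
      (fun i _ => Finset.sum_nonneg (s := Finset.univ) (f := fun k => B k i * B k i)
        fun k _ => mul_self_nonneg _) (Finset.mem_univ i)
  have h1 : (B.transpose * B) i j ≤ ((B.transpose * B) i i + (B.transpose * B) j j) / 2 := by
    show ∑ k, B k i * B k j ≤ (∑ k, B k i * B k i + ∑ k, B k j * B k j) / 2
    rw [← Finset.sum_add_distrib, Finset.sum_div]
    exact Finset.sum_le_sum fun k _ => by nlinarith [sq_nonneg (B k i - B k j)]
  have h2 : -((B.transpose * B) i j) ≤ ((B.transpose * B) i i + (B.transpose * B) j j) / 2 := by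
    show -∑ k, B k i * B k j ≤ (∑ k, B k i * B k i + ∑ k, B k j * B k j) / 2
    rw [← Finset.sum_add_distrib, Finset.sum_div, ← Finset.sum_neg_distrib]
    exact Finset.sum_le_sum fun k _ => by nlinarith [sq_nonneg (B k i + B k j)]
  have h3 := hd i
  have h4 := hd j
  rw [abs_le]
  constructor <;> linarith

/-- the positive definite matrices of determinant one -/
def SPD (n : ℕ) : Set (Matrix (Fin n) (Fin n) ℝ) := {L | L.PosDef ∧ L.det = 1}

theorem isClosed_posSemidef : IsClosed {L : Matrix (Fin n) (Fin n) ℝ | L.PosSemidef} := by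
  have : {L : Matrix (Fin n) (Fin n) ℝ | L.PosSemidef} =
      {L | L.transpose = L} ∩ ⋂ x : Fin n → ℝ, {L | 0 ≤ x ⬝ᵥ (L *ᵥ x)} := by
    ext L
    rw [Set.mem_ofPred_eq, posSemidef_iff_dotProduct_mulVec, Set.mem_inter_iff, Set.mem_iInter]
    rfl
  rw [this]
  refine IsClosed.inter (isClosed_eq continuous_id.matrix_transpose continuous_id)
    (isClosed_iInter fun x => isClosed_le continuous_const ?_)
  show Continuous fun L : Matrix (Fin n) (Fin n) ℝ => ∑ i, x i * ∑ j, L i j * x j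
  fun_prop

theorem isCompact_slice (M : ℝ) : IsCompact {L ∈ SPD n | L.trace ≤ M} := by
  have hbox : IsCompact (Set.pi Set.univ fun _ : Fin n => Set.pi Set.univ fun _ : Fin n =>
      Set.Icc (-M) M) := isCompact_univ_pi fun _ => isCompact_univ_pi fun _ => isCompact_Icc
  have hsub : {L ∈ SPD n | L.trace ≤ M} ⊆ (Set.pi Set.univ fun _ : Fin n =>
      Set.pi Set.univ fun _ : Fin n => Set.Icc (-M) M) := by
    rintro L ⟨⟨hL, -⟩, hM⟩ i - j -
    have := (abs_entry_le hL.posSemidef i j).trans hM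
    exact abs_le.1 this
  have hset : {L ∈ SPD n | L.trace ≤ M} = {L | L.PosSemidef} ∩ ({L | L.det = 1} ∩
      {L | L.trace ≤ M}) := by
    ext L
    constructor
    · rintro ⟨⟨h1, h2⟩, h3⟩
      exact ⟨h1.posSemidef, h2, h3⟩
    · rintro ⟨h1, h2, h3⟩
      have h2' : L.det = 1 := h2
      exact ⟨⟨h1.posDef_iff_det_ne_zero.2 (by rw [h2']; exact one_ne_zero), h2⟩, h3⟩
  refine hbox.of_isClosed_subset ?_ hsub
  rw [hset]
  exact isClosed_posSemidef.inter ((isClosed_eq (Continuous.matrix_det continuous_id)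
    continuous_const).inter (isClosed_le (Continuous.matrix_trace continuous_id)
      continuous_const))

section main

variable {P : Measure Ω} {Z : Ω → Fin n → ℝ} {μ : Measure (Fin n → ℝ)}
  (hZ : Measurable Z) (hZ2 : Integrable (fun ω => Z ω ⬝ᵥ Z ω) P)
  (hμ : Integrable (fun x => x ⬝ᵥ x) μ) (D : ∀ L ∈ SPD n, Dat P Z μ L)

open Classical in
/-- the functional `J` -/
noncomputable def J (L : Matrix (Fin n) (Fin n) ℝ) : ℝ :=
  if h : L ∈ SPD n then (D L h).K.trace else 0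

theorem J_eq {L : Matrix (Fin n) (Fin n) ℝ} (h : L ∈ SPD n) : J D L = (D L h).K.trace := dif_pos h

theorem isUnit_det {L : Matrix (Fin n) (Fin n) ℝ} (h : L ∈ SPD n) : IsUnit L.det := by
  rw [h.2]
  exact isUnit_one

include hZ hZ2 hμ in
theorem lsc_J : LowerSemicontinuousOn (J D) (SPD n) := by
  intro L hL y hy
  have hcont : Continuous fun L' : Matrix (Fin n) (Fin n) ℝ => (L' * L⁻¹ * (D L hL).K).trace :=
    Continuous.matrix_trace ((continuous_id.matrix_mul continuous_const).matrix_mul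
      continuous_const)
  have h0 : (L * L⁻¹ * (D L hL).K).trace = J D L := by
    rw [mul_nonsing_inv L (isUnit_det hL), Matrix.one_mul, J_eq D hL]
  have h1 : ∀ᶠ L' in 𝓝 L, y < (L' * L⁻¹ * (D L hL).K).trace :=
    hcont.continuousAt.eventually (lt_mem_nhds (lt_of_lt_of_eq hy h0.symm))
  filter_upwards [nhdsWithin_le_nhds h1, self_mem_nhdsWithin] with L' h2 h3
  rw [J_eq D h3]
  exact lt_of_lt_of_le h2 ((D L hL).le_trace hZ hZ2 hμ (D L' h3) (isUnit_det hL))

theorem one_mem_SPD : (1 : Matrix (Fin n) (Fin n) ℝ) ∈ SPD n := ⟨PosDef.one, det_one⟩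

include hZ hZ2 hμ in
theorem exists_min {c : ℝ} (hc : 0 < c)
    (hK : ∀ x : Fin n → ℝ, c * (x ⬝ᵥ x) ≤ x ⬝ᵥ ((D 1 one_mem_SPD).K *ᵥ x)) :
    ∃ L ∈ SPD n, ∀ L' ∈ SPD n, J D L ≤ J D L' := by
  have hco : ∀ L ∈ SPD n, c * L.trace ≤ J D L := by
    intro L hL
    have h1 := (D 1 one_mem_SPD).le_trace hZ hZ2 hμ (D L hL) (isUnit_det one_mem_SPD)
    rw [inv_one, Matrix.mul_one] at h1
    rw [J_eq D hL]
    exact (trace_mul_ge hL.1.posSemidef hK).trans h1
  set M := J D 1 / c with hM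
  have hne : ({L ∈ SPD n | L.trace ≤ M}).Nonempty := ⟨1, one_mem_SPD, by
    rw [hM, le_div_iff₀ hc, mul_comm]
    exact hco 1 one_mem_SPD⟩
  obtain ⟨L, hL, hmin⟩ := ((lsc_J hZ hZ2 hμ D).mono fun L hL => hL.1).exists_isMinOn hne
    (isCompact_slice M)
  refine ⟨L, hL.1, fun L' hL' => ?_⟩
  by_cases h : L'.trace ≤ M
  · exact hmin ⟨hL', h⟩
  · have h1 : J D L ≤ J D 1 := hmin ⟨one_mem_SPD, by
      rw [hM, le_div_iff₀ hc, mul_comm]
      exact hco 1 one_mem_SPD⟩
    push Not at h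
    have h2 : J D 1 < c * L'.trace := by
      rw [hM, div_lt_iff₀ hc, mul_comm] at h
      exact h
    exact h1.trans (h2.le.trans (hco L' hL'))

/-! ### the variation -/

theorem hasDerivAt_mul {A B : ℝ → Matrix (Fin n) (Fin n) ℝ} {A' B' : Matrix (Fin n) (Fin n) ℝ}
    {x : ℝ} (hA : ∀ i j, HasDerivAt (fun t => A t i j) (A' i j) x)
    (hB : ∀ i j, HasDerivAt (fun t => B t i j) (B' i j) x) (i j : Fin n) :
    HasDerivAt (fun t => (A t * B t) i j) ((A' * B x + A x * B') i j) x := by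
  have h := HasDerivAt.fun_sum (u := Finset.univ) fun k _ => (hA i k).mul (hB k j)
  have e : (A' * B x + A x * B') i j = ∑ k, (A' i k * B x k j + A x i k * B' k j) := by
    rw [Finset.sum_add_distrib]
    rfl
  rw [e]
  exact h

theorem hasDerivAt_const_entry (A : Matrix (Fin n) (Fin n) ℝ) (x : ℝ) (i j : Fin n) :
    HasDerivAt (fun _ : ℝ => A i j) ((0 : Matrix (Fin n) (Fin n) ℝ) i j) x :=
  hasDerivAt_const x (A i j)

include hZ hZ2 hμ in
/-- first variation of `J` at a minimiser -/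
theorem variation {L : Matrix (Fin n) (Fin n) ℝ} (hL : L ∈ SPD n)
    (hmin : ∀ L' ∈ SPD n, J D L ≤ J D L') {S : ℝ → Matrix (Fin n) (Fin n) ℝ}
    {H : Matrix (Fin n) (Fin n) ℝ} (hS0 : S 0 = 1) (hdet : ∀ t, (S t).det = 1)
    (hS : ∀ i j, HasDerivAt (fun t => S t i j) (H i j) 0) :
    ((H + L * H.transpose * L⁻¹) * (D L hL).K).trace = 0 := by
  set K := (D L hL).K with hK
  set m2 := ∫ ω, (D L hL).Y ω ⬝ᵥ (D L hL).Y ω ∂P with hm2
  have hu := isUnit_det hL
  -- the path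
  have hpath : ∀ t, S t * L * (S t).transpose ∈ SPD n := by
    intro t
    refine ⟨?_, ?_⟩
    · have h1 := hL.1.mul_mul_conjTranspose_same (B := S t)
        (Matrix.vecMul_injective_of_isUnit (by
          rw [Matrix.isUnit_iff_isUnit_det, hdet]; exact isUnit_one))
      rwa [conjTranspose_eq_transpose_of_trivial] at h1
    · rw [det_mul, det_mul, det_transpose, hdet, hL.2]
      ring
  let N : ℝ → Matrix (Fin n) (Fin n) ℝ := fun t => S t * L * (S t).transpose * L⁻¹ - 1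
  have hN0 : N 0 = 0 := by
    show S 0 * L * (S 0).transpose * L⁻¹ - 1 = 0
    rw [hS0, transpose_one, Matrix.one_mul, Matrix.mul_one, mul_nonsing_inv L hu, sub_self]
  have hNd : ∀ i j, HasDerivAt (fun t => N t i j) ((H + L * H.transpose * L⁻¹) i j) 0 := by
    have h1 := hasDerivAt_mul hS (hasDerivAt_const_entry L 0)
    have h2 := hasDerivAt_mul h1 (B := fun t => (S t).transpose) (B' := H.transpose)
      fun i j => hS j i
    have h3 := hasDerivAt_mul h2 (hasDerivAt_const_entry L⁻¹ 0)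
    intro i j
    have h4 := (h3 i j).sub_const ((1 : Matrix (Fin n) (Fin n) ℝ) i j)
    have e : (((H * L + S 0 * 0) * (S 0).transpose + S 0 * L * H.transpose) * L⁻¹ +
        S 0 * L * (S 0).transpose * 0) = H + L * H.transpose * L⁻¹ := by
      rw [hS0, transpose_one, Matrix.mul_zero, Matrix.mul_zero, add_zero, add_zero, Matrix.mul_one,
        Matrix.one_mul, Matrix.add_mul, Matrix.mul_assoc H, mul_nonsing_inv L hu, Matrix.mul_one]
    rw [← e]
    exact h4
  -- the function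
  let φ : ℝ → ℝ := fun t => (∑ i, ∑ j, N t i j * K j i) +
    (D L hL).C * ((∑ i, ∑ j, N t i j ^ 2) * m2)
  have hφd : HasDerivAt φ ((∑ i, ∑ j, (H + L * H.transpose * L⁻¹) i j * K j i) +
      (D L hL).C * ((∑ i, ∑ j, (2 : ℕ) * N 0 i j ^ (2 - 1) * (H + L * H.transpose * L⁻¹) i j) * m2))
      0 := by
    refine HasDerivAt.add ?_ (HasDerivAt.const_mul _ (HasDerivAt.mul_const ?_ _))
    · exact HasDerivAt.fun_sum fun i _ => HasDerivAt.fun_sum fun j _ => (hNd i j).mul_const _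
    · exact HasDerivAt.fun_sum fun i _ => HasDerivAt.fun_sum fun j _ => (hNd i j).pow 2
  have hφ0 : φ 0 = 0 := by
    show (∑ i, ∑ j, N 0 i j * K j i) + (D L hL).C * ((∑ i, ∑ j, N 0 i j ^ 2) * m2) = 0
    rw [hN0]
    simp
  have hφ : ∀ t, 0 ≤ φ t := by
    intro t
    have h1 := (D L hL).trace_le hZ hZ2 hμ (D _ (hpath t)) hu (N := N t) (by
      show _ = 1 + (S t * L * (S t).transpose * L⁻¹ - 1)
      rw [add_sub_cancel])
    have h2 := hmin _ (hpath t)
    rw [J_eq D hL, J_eq D (hpath t)] at h2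
    have e1 : (N t * K).trace = ∑ i, ∑ j, N t i j * K j i := rfl
    have e2 : fro (N t) = ∑ i, ∑ j, N t i j ^ 2 := rfl
    rw [← hK, ← hm2, e1, e2] at h1
    show 0 ≤ (∑ i, ∑ j, N t i j * K j i) + (D L hL).C * ((∑ i, ∑ j, N t i j ^ 2) * m2)
    rw [← hK] at h2
    linarith
  have hmin0 : IsLocalMin φ 0 := Filter.Eventually.of_forall fun t => by
    show φ 0 ≤ φ t
    rw [hφ0]
    exact hφ t
  have h := IsLocalMin.hasDerivAt_eq_zero hmin0 hφd
  have e1 : (∑ i, ∑ j, ((2 : ℕ) : ℝ) * N 0 i j ^ (2 - 1) * (H + L * H.transpose * L⁻¹) i j) = 0 := by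
    refine Finset.sum_eq_zero fun i _ => Finset.sum_eq_zero fun j _ => ?_
    rw [hN0, Matrix.zero_apply]
    simp
  rw [e1, zero_mul, mul_zero, add_zero] at h
  exact h

theorem trace_single_mul (i j : Fin n) (M : Matrix (Fin n) (Fin n) ℝ) :
    (Matrix.single i j (1 : ℝ) * M).trace = M j i := by
  have h : ∀ a, (Matrix.single i j (1 : ℝ) * M) a a = if a = i then M j i else 0 := by
    intro a
    by_cases ha : a = i
    · subst ha
      rw [if_pos rfl, single_mul_apply_same, one_mul]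
    · rw [if_neg ha, single_mul_apply_of_ne _ _ _ _ _ ha]
  show ∑ a, (Matrix.single i j (1 : ℝ) * M) a a = M j i
  rw [Finset.sum_congr rfl fun a _ => h a, Finset.sum_ite_eq' Finset.univ i, if_pos (Finset.mem_univ i)]

/-- a symmetric matrix with `L K + K L = g L`, `L > 0`, is scalar -/
theorem eq_scalar {L K : Matrix (Fin n) (Fin n) ℝ} (hL : L.PosDef) (hK : K.transpose = K) {g : ℝ}
    (h : L * K + K * L = g • L) : K = (g / 2) • 1 := by
  set A := K - (g / 2) • (1 : Matrix (Fin n) (Fin n) ℝ) with hA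
  have hAt : A.transpose = A := by
    rw [hA, transpose_sub, transpose_smul, transpose_one, hK]
  have h1 : L * A = -(A * L) := by
    rw [eq_neg_iff_add_eq_zero, hA, Matrix.mul_sub, Matrix.sub_mul, Matrix.mul_smul,
      Matrix.smul_mul, Matrix.mul_one, Matrix.one_mul]
    have : L * K - (g / 2) • L + (K * L - (g / 2) • L) = (L * K + K * L) - g • L := by
      have e : g • L = (g / 2) • L + (g / 2) • L := by rw [← add_smul]; congr 1; ring
      rw [e]
      abel
    rw [this, h, sub_self]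
  have h2 : (A * L * A).trace = 0 := by
    have e : (A * L * A).trace = -(A * L * A).trace := by
      conv_lhs => rw [Matrix.mul_assoc, h1, Matrix.mul_neg, trace_neg, ← Matrix.mul_assoc,
        Matrix.mul_assoc, Matrix.trace_mul_comm]
    linarith
  have h3 : ∀ i, (A * L * A) i i = (A i) ⬝ᵥ (L *ᵥ A i) := by
    intro i
    have e : ∀ k, A k i = A i k := fun k => congrFun (congrFun hAt i) k
    show ∑ k, (∑ l, A i l * L l k) * A k i = ∑ l, A i l * ∑ k, L l k * A i k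
    simp_rw [Finset.sum_mul, Finset.mul_sum]
    rw [Finset.sum_comm]
    refine Finset.sum_congr rfl fun l _ => Finset.sum_congr rfl fun k _ => ?_
    rw [e k]
    ring
  have h4 : ∀ i, 0 ≤ (A i) ⬝ᵥ (L *ᵥ A i) := fun i => hL.posSemidef.dotProduct_mulVec_nonneg (A i)
  have h5 : ∀ i, (A i) ⬝ᵥ (L *ᵥ A i) = 0 := by
    have e : ∑ i, (A i) ⬝ᵥ (L *ᵥ A i) = 0 := by
      rw [← h2]
      exact Finset.sum_congr rfl fun i _ => (h3 i).symm
    intro i
    exact (Finset.sum_eq_zero_iff_of_nonneg fun i _ => h4 i).1 e i (Finset.mem_univ i)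
  have h6 : ∀ i, A i = 0 := by
    intro i
    by_contra hne
    have := hL.dotProduct_mulVec_pos hne
    exact this.ne' (h5 i)
  have h7 : A = 0 := funext h6
  rw [hA, sub_eq_zero] at h7
  exact h7

include hZ hZ2 hμ in
/-- **The gauge.** -/
theorem exists_gauge {c : ℝ} (hc : 0 < c)
    (hK : ∀ x : Fin n → ℝ, c * (x ⬝ᵥ x) ≤ x ⬝ᵥ ((D 1 one_mem_SPD).K *ᵥ x)) :
    ∃ (L : Matrix (Fin n) (Fin n) ℝ) (hL : L ∈ SPD n) (g : ℝ),
      (D L hL).K = g • (1 : Matrix (Fin n) (Fin n) ℝ) := by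
  obtain ⟨L, hL, hmin⟩ := exists_min hZ hZ2 hμ D hc hK
  set K := (D L hL).K with hKd
  have hKs : K.transpose = K := (D L hL).K_symm
  have hu := isUnit_det hL
  set G := K + L⁻¹ * K * L with hG
  have hvar : ∀ H : Matrix (Fin n) (Fin n) ℝ, ((H + L * H.transpose * L⁻¹) * K).trace = 0 →
      (H * K).trace + (H.transpose * (L⁻¹ * K * L)).trace = 0 := by
    intro H h
    rw [Matrix.add_mul, trace_add] at h
    have e : (L * H.transpose * L⁻¹ * K).trace = (H.transpose * (L⁻¹ * K * L)).trace := by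
      rw [Matrix.mul_assoc (L * H.transpose), Matrix.mul_assoc L, Matrix.trace_mul_comm,
        Matrix.mul_assoc]
    rwa [e] at h
  -- off-diagonal entries
  have hoff : ∀ i j, i ≠ j → G i j = 0 := by
    intro i j hij
    have h1 := variation hZ hZ2 hμ D hL hmin (S := fun t => transvection i j t)
      (H := Matrix.single i j 1) (by simp) (fun t => det_transvection_of_ne i j hij t) (by
        intro a b
        have e : (fun t : ℝ => transvection i j t a b) =
            fun t => (1 : Matrix (Fin n) (Fin n) ℝ) a b + t * Matrix.single i j (1 : ℝ) a b := by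
          funext t
          simp [transvection, Matrix.single_apply]
        rw [e]
        have := ((hasDerivAt_id (0 : ℝ)).mul_const (Matrix.single i j (1 : ℝ) a b)).const_add
          ((1 : Matrix (Fin n) (Fin n) ℝ) a b)
        simpa using this)
    have h2 := hvar _ h1
    rw [Matrix.transpose_single, trace_single_mul, trace_single_mul] at h2
    have e : K j i = K i j := congrFun (congrFun hKs i) j
    rw [e] at h2
    exact h2
  -- diagonal entries
  have hdiag : ∀ i j, G i i = G j j := by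
    intro i j
    by_cases hij : i = j
    · rw [hij]
    let d : Fin n → ℝ := fun k => (if k = i then 1 else 0) - (if k = j then 1 else 0)
    have hd : ∑ k, d k = 0 := by
      rw [Finset.sum_sub_distrib, Finset.sum_ite_eq' , Finset.sum_ite_eq']
      simp
    have h1 := variation hZ hZ2 hμ D hL hmin (S := fun t => diagonal fun k => Real.exp (t * d k))
      (H := diagonal d) (by simp) (fun t => by
        rw [det_diagonal, ← Real.exp_sum, ← Finset.mul_sum, hd, mul_zero, Real.exp_zero]) (by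
        intro a b
        by_cases hab : a = b
        · subst hab
          simp only [diagonal_apply_eq]
          have := ((hasDerivAt_id (0 : ℝ)).mul_const (d a)).exp
          simpa using this
        · simp only [diagonal_apply_ne _ hab]
          exact hasDerivAt_const _ _)
    have h2 := hvar _ h1
    rw [diagonal_transpose] at h2
    have e : ∀ M : Matrix (Fin n) (Fin n) ℝ, (diagonal d * M).trace = ∑ k, d k * M k k := by
      intro M
      exact Finset.sum_congr rfl fun k _ => by rw [diag_apply, diagonal_mul]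
    rw [e, e, ← Finset.sum_add_distrib] at h2
    have h3 : ∑ k, d k * G k k = 0 := by
      rw [← h2]
      refine Finset.sum_congr rfl fun k _ => ?_
      rw [hG, Matrix.add_apply, mul_add]
    have h4 : ∑ k, d k * G k k = G i i - G j j := by
      simp only [d, sub_mul, ite_mul, one_mul, zero_mul, Finset.sum_sub_distrib,
        Finset.sum_ite_eq', Finset.mem_univ, if_true]
    rw [h4] at h3
    linarith
  -- scalar
  obtain ⟨g, hg⟩ : ∃ g : ℝ, G = g • (1 : Matrix (Fin n) (Fin n) ℝ) := by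
    rcases Nat.eq_zero_or_pos n with rfl | hn
    · exact ⟨0, by ext i; exact i.elim0⟩
    · refine ⟨G ⟨0, hn⟩ ⟨0, hn⟩, ?_⟩
      ext i j
      by_cases hij : i = j
      · subst hij
        rw [Matrix.smul_apply, Matrix.one_apply_eq, smul_eq_mul, mul_one]
        exact hdiag _ _
      · rw [Matrix.smul_apply, Matrix.one_apply_ne hij, smul_zero]
        exact hoff i j hij
  refine ⟨L, hL, g / 2, eq_scalar hL.1 hKs ?_⟩
  have h1 : L * G = L * K + K * L := by
    rw [hG, Matrix.mul_add, ← Matrix.mul_assoc, ← Matrix.mul_assoc, mul_nonsing_inv L hu,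
      Matrix.one_mul]
  rw [← h1, hg, Matrix.mul_smul, Matrix.mul_one]

end main

end Vale.Agent.P254.H255
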